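import Vale.Agent.P129.H3.Cx
import Vale.Agent.P129.H223.Kill

/-! P129: the kill for `X × X` (needed for the complex case). -/

open Set Submodule

namespace Vale.Agent.P129.H3

open Vale.Agent.P129.H189 Vale.Agent.P129.H223

variable {ι V V' : Type*} [LinearOrder ι] [NormedAddCommGroup V] [NormedSpace ℝ V]
  [NormedAddCommGroup V'] [NormedSpace ℝ V']

/-- the supply for a block sequence -/
def Supplied (S : ProjSystem ι V) (X : Submodule ℝ (V →L[ℝ] ℝ)) (l : ι) (h : ℕ → V) : Prop :=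
  ∀ m : ι, ∃ y ∈ X, (∀ v, S.P m v = v → y v = y (S.P l v)) ∧
    ∃ (C : ℝ) (u : ℕ → V), (∀ i, u i ∈ span ℝ (h '' Ici i)) ∧ (∀ i, ‖u i‖ ≤ C) ∧ ∀ i, 1 ≤ y (u i)

def SupplyFor (S : ProjSystem ι V) (X : Submodule ℝ (V →L[ℝ] ℝ)) (R : Submodule ℝ V) : Prop :=
  ∀ l : ι, Order.IsSuccLimit l → ∀ (α : ℕ → ι) (h : ℕ → V), IsBlock S l α h → (∀ k, h k ∈ R) →
    Supplied S X l h

theorem Supplied.mono {S : ProjSystem ι V} {X : Submodule ℝ (V →L[ℝ] ℝ)} {l : ι} {g h : ℕ → V}
    (hg : Supplied S X l g) (hgh : ∀ i, g i ∈ span ℝ (h '' Ici i)) : Supplied S X l h := by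
  intro m
  obtain ⟨y, hy, hy2, C, u, hu, hC, h1⟩ := hg m
  refine ⟨y, hy, hy2, C, u, fun i => ?_, hC, h1⟩
  refine (span_le.2 ?_) (hu i)
  rintro _ ⟨j, hj, rfl⟩
  exact span_mono (image_mono (Ici_subset_Ici.2 hj)) (hgh j)

/-- Supply is inherited along a map which is bounded below on the span of the block sequence. -/
theorem supplied_of_map (S : ProjSystem ι V) (S' : ProjSystem ι V') {X : Submodule ℝ (V →L[ℝ] ℝ)}
    {X' : Submodule ℝ (V' →L[ℝ] ℝ)} {R : Submodule ℝ V} {R' : Submodule ℝ V'}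
    (hs : SupplyFor S X R) (T : V' →L[ℝ] V) (hT : ∀ a v, S.P a (T v) = T (S'.P a v))
    (hX : ∀ y ∈ X, y.comp T ∈ X') (hR : ∀ r ∈ R', T r ∈ R) {l : ι} (hl : Order.IsSuccLimit l)
    {α : ℕ → ι} {h : ℕ → V'} (hb : IsBlock S' l α h) (hh : ∀ k, h k ∈ R') {c : ℝ} (hc : 0 < c)
    {n : ℕ} (hlow : ∀ g ∈ span ℝ (h '' Ici n), c * ‖g‖ ≤ ‖T g‖) : Supplied S' X' l h := by
  have hpos : ∀ k, 0 < ‖T (h (n + k))‖ := by
    intro k
    have h1 := hlow (h (n + k)) (subset_span ⟨n + k, by simp, rfl⟩)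
    have h2 := hb.one_le (n + k)
    nlinarith
  let g : ℕ → V' := fun k => (‖T (h (n + k))‖)⁻¹ • h (n + k)
  have hgT : ∀ k, ‖T (g k)‖ = 1 := by
    intro k
    simp only [g, map_smul, norm_smul, norm_inv, norm_norm]
    exact inv_mul_cancel₀ (hpos k).ne'
  have hblock : IsBlock S l (fun k => α (n + k)) (fun k => T (g k)) := by
    refine ⟨fun i j hij => hb.mono (by simpa using hij), fun k => hb.lt _, fun b hbl => ?_,
      fun k => ?_, fun k => ?_, fun k => (hgT k).ge, fun k => by rw [hgT]; norm_num⟩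
    · obtain ⟨k, hk⟩ := hb.cofinal b hbl
      exact ⟨k, hk.trans (hb.mono.monotone (by omega))⟩
    · rw [hT]
      simp only [g, map_smul, hb.low, smul_zero, map_zero]
    · rw [hT]
      have := hb.high (n + k)
      rw [add_assoc] at this
      simp only [g, map_smul, this]
  have hgR : ∀ k, T (g k) ∈ R := fun k => by
    simp only [g, map_smul]
    exact R.smul_mem _ (hR _ (hh _))
  intro m
  obtain ⟨y, hy, hy2, C, u, hu, hC, h1⟩ := hs l hl _ _ hblock hgR m
  have hlift : ∀ i, ∃ w ∈ span ℝ (g '' Ici i), T w = u i := by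
    intro i
    have h3 : (fun k => T (g k)) '' Ici i = (T : V' →ₗ[ℝ] V) '' (g '' Ici i) := by
      rw [image_image]; rfl
    have h4 := hu i
    rw [h3, ← Submodule.map_span, Submodule.mem_map] at h4
    exact h4
  choose w hw hwu using hlift
  have hgh : ∀ i, span ℝ (g '' Ici i) ≤ span ℝ (h '' Ici (n + i)) := by
    intro i
    refine span_le.2 ?_
    rintro _ ⟨j, hj, rfl⟩
    exact smul_mem _ _ (subset_span ⟨n + j, by simpa using hj, rfl⟩)
  refine ⟨y.comp T, hX y hy, fun v hv => ?_, C / c, w, fun i => ?_, fun i => ?_, fun i => ?_⟩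
  · have h5 : S.P m (T v) = T v := by rw [hT, hv]
    have h6 := hy2 _ h5
    simp only [ContinuousLinearMap.coe_comp, Function.comp_apply]
    rw [h6, hT]
  · exact span_mono (image_mono (Ici_subset_Ici.2 (by omega))) (hgh i (hw i))
  · rw [le_div_iff₀ hc, mul_comm]
    refine (hlow (w i) (span_mono (image_mono (Ici_subset_Ici.2 (by omega))) (hgh i (hw i)))).trans ?_
    rw [hwu]
    exact hC i
  · simp only [ContinuousLinearMap.coe_comp, Function.comp_apply, hwu]
    exact h1 i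

/-- the product of two projection systems -/
noncomputable def prodSystem (S : ProjSystem ι V) : ProjSystem ι (V × V) where
  P a := (S.P a).prodMap (S.P a)
  norm_le a v := by
    rw [Prod.norm_def, Prod.norm_def]
    exact max_le_max (S.norm_le a _) (S.norm_le a _)
  comp_of_le hab v := by
    ext
    · exact S.comp_of_le hab _
    · exact S.comp_of_le hab _
  comp_of_ge hab v := by
    ext
    · exact S.comp_of_ge hab _
    · exact S.comp_of_ge hab _
  exists_support v := by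
    obtain ⟨a, ha⟩ := S.exists_support fun n => (v n).1
    obtain ⟨b, hb⟩ := S.exists_support fun n => (v n).2
    refine ⟨max a b, fun n => ?_⟩
    ext
    · change S.P (max a b) (v n).1 = (v n).1
      rw [← ha n, S.comp_of_ge (le_max_left _ _)]
    · change S.P (max a b) (v n).2 = (v n).2
      rw [← hb n, S.comp_of_ge (le_max_right _ _)]
  bot a ha v := by
    ext
    · exact S.bot a ha _
    · exact S.bot a ha _
  succ a b hab := by
    have h1 := S.succ a b hab
    have h2 : LinearMap.range ((((S.P b).prodMap (S.P b) - (S.P a).prodMap (S.P a) :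
        V × V →L[ℝ] V × V)) : V × V →ₗ[ℝ] V × V) ≤
        (LinearMap.range ((S.P b - S.P a : V →L[ℝ] V) : V →ₗ[ℝ] V)).prod
          (LinearMap.range ((S.P b - S.P a : V →L[ℝ] V) : V →ₗ[ℝ] V)) := by
      rintro _ ⟨v, rfl⟩
      exact ⟨⟨v.1, rfl⟩, ⟨v.2, rfl⟩⟩
    have h3 : FiniteDimensional ℝ ((LinearMap.range ((S.P b - S.P a : V →L[ℝ] V) : V →ₗ[ℝ] V)).prod
          (LinearMap.range ((S.P b - S.P a : V →L[ℝ] V) : V →ₗ[ℝ] V))) := by
      exact Module.Finite.iff_fg.2 ((Module.Finite.iff_fg.1 h1).prod (Module.Finite.iff_fg.1 h1))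
    exact Submodule.finiteDimensional_of_le h2
  lim a ha v ε hε := by
    obtain ⟨b, hb, h1⟩ := S.lim a ha v.1 (ε / 2) (by positivity)
    obtain ⟨c, hc, h2⟩ := S.lim a ha v.2 (ε / 2) (by positivity)
    have key : ∀ (d e : ι) (x : V), d ≤ e → e < a → ‖S.P a x - S.P d x‖ < ε / 2 →
        ‖S.P a x - S.P e x‖ < ε := by
      intro d e x hde hea hx
      have h3 : S.P a x - S.P e x = (S.P a x - S.P d x) - S.P e (S.P a x - S.P d x) := by
        rw [map_sub, S.comp_of_le hea.le, S.comp_of_ge hde]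
        abel
      rw [h3]
      calc _ ≤ ‖S.P a x - S.P d x‖ + ‖S.P e (S.P a x - S.P d x)‖ := norm_sub_le _ _
        _ ≤ ‖S.P a x - S.P d x‖ + ‖S.P a x - S.P d x‖ := by
            gcongr
            exact S.norm_le _ _
        _ < ε := by linarith
    refine ⟨max b c, max_lt hb hc, ?_⟩
    rw [Prod.norm_def]
    exact max_lt (key b _ _ (le_max_left _ _) (max_lt hb hc) h1)
      (key c _ _ (le_max_right _ _) (max_lt hb hc) h2)

/-- a block sequence of a given block sequence -/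
theorem exists_blocks (S : ProjSystem ι V) {R : Submodule ℝ V} {l : ι} {α : ℕ → ι} {h : ℕ → V}
    (hb : IsBlock S l α h) (hh : ∀ k, h k ∈ R) (p : ℕ → V → Prop)
    (hp : ∀ n k, ∃ g ∈ span ℝ (h '' Ici n), g ≠ 0 ∧ ∀ c : ℝ, c ≠ 0 → p k (c • g)) :
    ∃ (β : ℕ → ι) (g : ℕ → V), IsBlock S l β g ∧ (∀ k, g k ∈ R) ∧ (∀ k, ‖g k‖ = 1) ∧
      (∀ k, g k ∈ span ℝ (h '' Ici k)) ∧ ∀ k, p k (g k) := by
  have hlow : ∀ n, ∀ g ∈ span ℝ (h '' Ici n), S.P (α n) g = 0 := by
    intro n g hg
    have h1 : span ℝ (h '' Ici n) ≤ LinearMap.ker (S.P (α n) : V →ₗ[ℝ] V) := by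
      refine span_le.2 ?_
      rintro _ ⟨k, hk, rfl⟩
      simp only [SetLike.mem_coe, LinearMap.mem_ker, ContinuousLinearMap.coe_coe]
      rw [← S.comp_of_le (hb.mono.monotone hk), hb.low, map_zero]
    exact h1 hg
  have hhigh : ∀ n, ∀ g ∈ span ℝ (h '' Iio n), S.P (α n) g = g := by
    intro n g hg
    induction hg using Submodule.span_induction with
    | mem x hx =>
      obtain ⟨k, hk, rfl⟩ := hx
      rw [← hb.high k, S.comp_of_ge (hb.mono.monotone (Nat.succ_le_of_lt hk))]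
    | zero => simp
    | add x y _ _ hx hy => rw [map_add, hx, hy]
    | smul a x _ hx => rw [map_smul, hx]
  have hfin : ∀ n, ∀ g ∈ span ℝ (h '' Ici n), ∃ N, n < N ∧ g ∈ span ℝ (h '' Iio N) := by
    intro n g hg
    induction hg using Submodule.span_induction with
    | mem x hx =>
      obtain ⟨k, hk, rfl⟩ := hx
      exact ⟨max n k + 1, by omega, subset_span ⟨k, mem_Iio.2 (by omega), rfl⟩⟩
    | zero => exact ⟨n + 1, by omega, zero_mem _⟩
    | add x y _ _ hx hy =>
      obtain ⟨N, h1, h2⟩ := hx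
      obtain ⟨M, h3, h4⟩ := hy
      refine ⟨max N M, by omega, add_mem (span_mono (image_mono (Iio_subset_Iio ?_)) h2)
        (span_mono (image_mono (Iio_subset_Iio ?_)) h4)⟩
      · exact le_max_left _ _
      · exact le_max_right _ _
    | smul a x _ hx =>
      obtain ⟨N, h1, h2⟩ := hx
      exact ⟨N, h1, smul_mem _ _ h2⟩
  have step : ∀ n k, ∃ (g : V) (N : ℕ), n < N ∧ g ∈ span ℝ (h '' Ici n) ∧
      g ∈ span ℝ (h '' Iio N) ∧ ‖g‖ = 1 ∧ p k g := by
    intro n k
    obtain ⟨g, hg, hg0, hpg⟩ := hp n k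
    obtain ⟨N, hN, hgN⟩ := hfin n g hg
    have h1 : (‖g‖)⁻¹ ≠ 0 := inv_ne_zero (norm_ne_zero_iff.2 hg0)
    refine ⟨(‖g‖)⁻¹ • g, N, hN, smul_mem _ _ hg, smul_mem _ _ hgN, ?_, hpg _ h1⟩
    rw [norm_smul, norm_inv, norm_norm]
    exact inv_mul_cancel₀ (norm_ne_zero_iff.2 hg0)
  choose G N hGN hG1 hG2 hG3 hG4 using step
  let ν : ℕ → ℕ := fun k => Nat.rec 0 (fun k n => N n k) k
  have hν : ∀ k, ν (k + 1) = N (ν k) k := fun k => rfl
  have hνmono : StrictMono ν := strictMono_nat_of_lt_succ fun k => by rw [hν]; exact hGN _ _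
  refine ⟨fun k => α (ν k), fun k => G (ν k) k, ⟨hb.mono.comp hνmono, fun k => hb.lt _, ?_,
    fun k => hlow _ _ (hG1 _ _), fun k => ?_, fun k => (hG3 _ _).ge, fun k => ?_⟩, fun k => ?_,
    fun k => hG3 _ _, fun k => ?_, fun k => hG4 _ _⟩
  · intro b hbl
    obtain ⟨k, hk⟩ := hb.cofinal b hbl
    exact ⟨k, hk.trans (hb.mono.monotone hνmono.le_apply)⟩
  · rw [hν]
    exact hhigh _ _ (hG2 _ _)
  · rw [hG3]; norm_num
  · have h1 : span ℝ (h '' Ici (ν k)) ≤ R := by
      refine span_le.2 ?_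
      rintro _ ⟨k, -, rfl⟩
      exact hh k
    exact h1 (hG1 _ _)
  · exact span_mono (image_mono (Ici_subset_Ici.2 hνmono.le_apply)) (hG1 _ _)

/-- coefficients of a combination of a normalised block sequence -/
theorem block_estimate (S : ProjSystem ι V) {l : ι} {α : ℕ → ι} {g : ℕ → V}
    (hb : IsBlock S l α g) (T : V →L[ℝ] V') (hT : ∀ k, ‖T (g k)‖ ≤ (1 / 2) ^ (k + 3))
    (h1 : ∀ k, ‖g k‖ = 1) : ∀ w ∈ span ℝ (g '' Ici 0), ‖T w‖ ≤ 1 / 2 * ‖w‖ := by
  intro w hw
  have h2 : g '' Ici 0 = range g := by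
    rw [← image_univ]; congr 1; ext; simp
  rw [h2] at hw
  obtain ⟨c, rfl⟩ := (Finsupp.mem_span_range_iff_exists_finsupp).1 hw
  set w := c.sum fun i a => a • g i with hwdef
  have hP : ∀ n k, S.P (α n) (g k) = if k < n then g k else 0 := by
    intro n k
    split_ifs with hkn
    · rw [← hb.high k, S.comp_of_ge (hb.mono.monotone (Nat.succ_le_of_lt hkn))]
    · rw [← S.comp_of_le (hb.mono.monotone (not_lt.1 hkn)), hb.low, map_zero]
  have hcoef : ∀ k, |c k| ≤ 2 * ‖w‖ := by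
    intro k
    have h3 : S.P (α (k + 1)) w - S.P (α k) w = c k • g k := by
      rw [hwdef, Finsupp.sum, map_sum, map_sum, ← Finset.sum_sub_distrib]
      simp only [map_smul, hP, ← smul_sub]
      rw [Finset.sum_eq_single k]
      · simp
      · intro j _ hj
        rcases lt_or_gt_of_ne hj with h | h
        · simp [h, Nat.lt_succ_of_lt h]
        · simp [not_lt.2 h.le, not_lt.2 (Nat.succ_le_of_lt h)]
      · intro hk
        rw [Finsupp.notMem_support_iff.1 hk, zero_smul]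
    have h4 : ‖c k • g k‖ = |c k| := by rw [norm_smul, h1, mul_one, Real.norm_eq_abs]
    rw [← h4, ← h3]
    calc _ ≤ ‖S.P (α (k + 1)) w‖ + ‖S.P (α k) w‖ := norm_sub_le _ _
      _ ≤ ‖w‖ + ‖w‖ := add_le_add (S.norm_le _ _) (S.norm_le _ _)
      _ = _ := by ring
  calc ‖T w‖ = ‖∑ k ∈ c.support, c k • T (g k)‖ := by
        rw [hwdef, Finsupp.sum, map_sum]; simp only [map_smul]
    _ ≤ ∑ k ∈ c.support, ‖c k • T (g k)‖ := norm_sum_le _ _
    _ ≤ ∑ k ∈ c.support, 2 * ‖w‖ * (1 / 2) ^ (k + 3) := by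
        refine Finset.sum_le_sum fun k _ => ?_
        rw [norm_smul, Real.norm_eq_abs]
        exact mul_le_mul (hcoef k) (hT k) (norm_nonneg _) (by positivity)
    _ = 2 * ‖w‖ * ∑ k ∈ c.support, (1 / 2) ^ (k + 3) := by rw [Finset.mul_sum]
    _ ≤ 2 * ‖w‖ * (1 / 4) := by
        gcongr
        have h5 : Summable fun k : ℕ => ((1 : ℝ) / 2) ^ (k + 3) := by
          simp_rw [pow_add]
          exact (summable_geometric_of_lt_one (by norm_num) (by norm_num)).mul_right _
        calc _ ≤ ∑' k : ℕ, ((1 : ℝ) / 2) ^ (k + 3) := h5.sum_le_tsum _ fun _ _ => by positivity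
          _ = 1 / 4 := by
            simp_rw [pow_add]
            rw [tsum_mul_right, tsum_geometric_of_lt_one (by norm_num) (by norm_num)]
            norm_num
    _ = _ := by ring

/-- The supply for the product. -/
theorem supply_prod (S : ProjSystem ι V) (X : Submodule ℝ (V →L[ℝ] ℝ)) (R : Submodule ℝ V)
    (hs : SupplyFor S X R) (X' : Submodule ℝ (V × V →L[ℝ] ℝ))
    (h1 : ∀ y ∈ X, y.comp (ContinuousLinearMap.fst ℝ V V) ∈ X')
    (h2 : ∀ y ∈ X, y.comp (ContinuousLinearMap.snd ℝ V V) ∈ X') :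
    SupplyFor (prodSystem S) X' (R.prod R) := by
  intro l hl α h hb hh
  by_cases hA : ∃ n : ℕ, ∃ c : ℝ, 0 < c ∧ ∀ g ∈ span ℝ (h '' Ici n), c * ‖g‖ ≤ ‖g.1‖
  · obtain ⟨n, c, hc, hn⟩ := hA
    exact supplied_of_map S (prodSystem S) (R' := R.prod R) hs (ContinuousLinearMap.fst ℝ V V) (fun a v => rfl) h1
      (fun r hr => (Submodule.mem_prod.1 hr).1) hl hb hh hc hn
  · push Not at hA
    obtain ⟨β, g, hg1, hg2, hg3, hg4, hg5⟩ := exists_blocks (prodSystem S) hb hh
      (fun k v => ‖v.1‖ ≤ (1 / 2) ^ (k + 3) * ‖v‖) (fun n k => by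
        obtain ⟨g, hg, hlt⟩ := hA n ((1 / 2) ^ (k + 3)) (by positivity)
        refine ⟨g, hg, ?_, fun c hc => ?_⟩
        · rintro rfl
          simp at hlt
        · have : ‖(c • g).1‖ = |c| * ‖g.1‖ := by
            rw [Prod.smul_fst, norm_smul, Real.norm_eq_abs]
          rw [this, norm_smul, Real.norm_eq_abs]
          nlinarith [abs_nonneg c])
    have hfst : ∀ w ∈ span ℝ (g '' Ici 0), ‖ContinuousLinearMap.fst ℝ V V w‖ ≤ 1 / 2 * ‖w‖ :=
      block_estimate (prodSystem S) hg1 (ContinuousLinearMap.fst ℝ V V) (fun k => by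
        have := hg5 k
        rw [hg3, mul_one] at this
        exact this) hg3
    have hsnd : ∀ w ∈ span ℝ (g '' Ici 0), 1 * ‖w‖ ≤ ‖ContinuousLinearMap.snd ℝ V V w‖ := by
      intro w hw
      have h3 := hfst w hw
      have h4 : ‖w‖ = max ‖w.1‖ ‖w.2‖ := Prod.norm_def w
      rw [one_mul]
      change ‖w.1‖ ≤ 1 / 2 * ‖w‖ at h3
      change ‖w‖ ≤ ‖w.2‖
      rcases le_total ‖w.1‖ ‖w.2‖ with h5 | h5
      · rw [h4, max_eq_right h5]
      · rw [max_eq_left h5] at h4
        have h6 := norm_nonneg w.1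
        have h7 : ‖w‖ = 0 := by linarith
        rw [h7]
        exact norm_nonneg _
    exact (supplied_of_map S (prodSystem S) (R' := R.prod R) hs (ContinuousLinearMap.snd ℝ V V) (fun a v => rfl) h2
      (fun r hr => (Submodule.mem_prod.1 hr).2) hl hg1 hg2 one_pos hsnd).mono hg4

/-- the product of two spaces of functionals, inside the dual of the product -/
def prodDual (X : Submodule ℝ (V →L[ℝ] ℝ)) : Submodule ℝ (V × V →L[ℝ] ℝ) where
  carrier := {f | f.comp (ContinuousLinearMap.inl ℝ V V) ∈ X ∧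
    f.comp (ContinuousLinearMap.inr ℝ V V) ∈ X}
  add_mem' := fun hf hg => ⟨X.add_mem hf.1 hg.1, X.add_mem hf.2 hg.2⟩
  zero_mem' := ⟨X.zero_mem, X.zero_mem⟩
  smul_mem' := fun c _ hf => ⟨X.smul_mem c hf.1, X.smul_mem c hf.2⟩

/-- the product of two spaces of functionals is the square -/
noncomputable def prodDualEquiv (X : Submodule ℝ (V →L[ℝ] ℝ)) : prodDual X ≃L[ℝ] X × X where
  toFun f := (⟨f.1.comp (ContinuousLinearMap.inl ℝ V V), f.2.1⟩,
    ⟨f.1.comp (ContinuousLinearMap.inr ℝ V V), f.2.2⟩)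
  map_add' f g := rfl
  map_smul' c f := rfl
  invFun p := ⟨p.1.1.coprod p.2.1, by
    refine ⟨?_, ?_⟩
    · have : (p.1.1.coprod p.2.1).comp (ContinuousLinearMap.inl ℝ V V) = p.1.1 := by
        ext v; simp
      rw [this]; exact p.1.2
    · have : (p.1.1.coprod p.2.1).comp (ContinuousLinearMap.inr ℝ V V) = p.2.1 := by
        ext v; simp
      rw [this]; exact p.2.2⟩
  left_inv f := by
    ext v <;> simp
  right_inv p := by
    ext v <;> simp
  continuous_toFun := by
    have h1 : Continuous fun f : V × V →L[ℝ] ℝ => f.comp (ContinuousLinearMap.inl ℝ V V) :=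
      ((ContinuousLinearMap.compL ℝ V (V × V) ℝ).flip (ContinuousLinearMap.inl ℝ V V)).continuous
    have h2 : Continuous fun f : V × V →L[ℝ] ℝ => f.comp (ContinuousLinearMap.inr ℝ V V) :=
      ((ContinuousLinearMap.compL ℝ V (V × V) ℝ).flip (ContinuousLinearMap.inr ℝ V V)).continuous
    exact ((h1.comp continuous_subtype_val).subtype_mk _).prodMk
      ((h2.comp continuous_subtype_val).subtype_mk _)
  continuous_invFun := by
    refine Continuous.subtype_mk ?_ _
    have h1 : ∀ p : X × X, p.1.1.coprod p.2.1 =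
        p.1.1.comp (ContinuousLinearMap.fst ℝ V V) + p.2.1.comp (ContinuousLinearMap.snd ℝ V V) := by
      intro p; ext v <;> simp
    simp_rw [h1]
    have h2 : Continuous fun f : V →L[ℝ] ℝ => f.comp (ContinuousLinearMap.fst ℝ V V) :=
      ((ContinuousLinearMap.compL ℝ (V × V) V ℝ).flip (ContinuousLinearMap.fst ℝ V V)).continuous
    have h3 : Continuous fun f : V →L[ℝ] ℝ => f.comp (ContinuousLinearMap.snd ℝ V V) :=
      ((ContinuousLinearMap.compL ℝ (V × V) V ℝ).flip (ContinuousLinearMap.snd ℝ V V)).continuous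
    exact (h2.comp (continuous_subtype_val.comp continuous_fst)).add
      (h3.comp (continuous_subtype_val.comp continuous_snd))

/-- every functional on the product is given by a vector -/
theorem prodDual_dual (X : Submodule ℝ (V →L[ℝ] ℝ))
    (hdual : ∀ f : X →L[ℝ] ℝ, ∃ v : V, ∀ x : X, f x = (x : V →L[ℝ] ℝ) v)
    (f : prodDual X →L[ℝ] ℝ) : ∃ v : V × V, ∀ x : prodDual X, f x = (x : V × V →L[ℝ] ℝ) v := by
  let E := prodDualEquiv X
  let f' : X × X →L[ℝ] ℝ := f.comp (E.symm : X × X →L[ℝ] prodDual X)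
  obtain ⟨v, hv⟩ := hdual (f'.comp (ContinuousLinearMap.inl ℝ X X))
  obtain ⟨w, hw⟩ := hdual (f'.comp (ContinuousLinearMap.inr ℝ X X))
  refine ⟨(v, w), fun x => ?_⟩
  have h1 : f x = f' (E x) := by simp [f']
  have h2 : E x = ContinuousLinearMap.inl ℝ X X (E x).1 + ContinuousLinearMap.inr ℝ X X (E x).2 := by
    simp
  have h3 := hv (E x).1
  have h4 := hw (E x).2
  rw [ContinuousLinearMap.comp_apply] at h3 h4
  rw [h1, h2, map_add, h3, h4]
  change (x : V × V →L[ℝ] ℝ) (v, 0) + (x : V × V →L[ℝ] ℝ) (0, w) = _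
  rw [← map_add]
  simp

/-- **The kill for the square**: the hypotheses of the kill (with a subspace `R` of nice vectors)
give that neither `X` nor `X × X` has a separable infinite-dimensional quotient. -/
theorem no_quotient_prod [WellFoundedLT ι] (S : ProjSystem ι V)
    (hcount : ∀ a : ι, (Set.Iio a).Countable) (R : Submodule ℝ V)
    (hR : ∀ a b : ι, a < b → ∀ w : V, S.P a w = 0 → S.P b w = w → ∀ ε > 0,
      ∃ r ∈ R, S.P a r = 0 ∧ S.P b r = r ∧ ‖r - w‖ < ε)
    (X : Submodule ℝ (V →L[ℝ] ℝ))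
    (hdual : ∀ f : X →L[ℝ] ℝ, ∃ v : V, ∀ x : X, f x = (x : V →L[ℝ] ℝ) v)
    (hsupply : SupplyFor S X R) :
    ¬ HasSeparableQuotient ℝ X ∧ ¬ HasSeparableQuotient ℝ (X × X) := by
  refine ⟨no_separable_quotient S hcount R hR X hdual hsupply, fun h => ?_⟩
  refine no_separable_quotient (prodSystem S) hcount (R.prod R : Submodule ℝ (V × V)) ?_
    (prodDual X) (prodDual_dual X hdual) ?_ (hasSep_congr (prodDualEquiv X).symm h)
  · intro a b hab w hw1 hw2 ε hε
    obtain ⟨r, hr, hr1, hr2, hr3⟩ := hR a b hab w.1 (congrArg Prod.fst hw1)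
      (congrArg Prod.fst hw2) ε hε
    obtain ⟨t, ht, ht1, ht2, ht3⟩ := hR a b hab w.2 (congrArg Prod.snd hw1)
      (congrArg Prod.snd hw2) ε hε
    refine ⟨(r, t), ⟨hr, ht⟩, Prod.ext hr1 ht1, Prod.ext hr2 ht2, ?_⟩
    rw [Prod.norm_def]
    exact max_lt hr3 ht3
  · exact supply_prod S X R hsupply (prodDual X)
      (fun y hy => ⟨by
        have : (y.comp (ContinuousLinearMap.fst ℝ V V)).comp (ContinuousLinearMap.inl ℝ V V) = y := by
          ext v; simp
        rw [this]; exact hy, by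
        have : (y.comp (ContinuousLinearMap.fst ℝ V V)).comp (ContinuousLinearMap.inr ℝ V V) = 0 := by
          ext v; simp
        rw [this]; exact X.zero_mem⟩)
      (fun y hy => ⟨by
        have : (y.comp (ContinuousLinearMap.snd ℝ V V)).comp (ContinuousLinearMap.inl ℝ V V) = 0 := by
          ext v; simp
        rw [this]; exact X.zero_mem, by
        have : (y.comp (ContinuousLinearMap.snd ℝ V V)).comp (ContinuousLinearMap.inr ℝ V V) = y := by
          ext v; simp
        rw [this]; exact hy⟩)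

end Vale.Agent.P129.H3
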