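import Vale.Agent.P129.H3.Cx
import Vale.Agent.P129.H189.Dens
import Vale.Agent.P129.H189.Red
import Vale.Agent.P129.H520.Old

/-! P129: final assembly, from a real counterexample under `non(M) = ℵ₁` to the statements for all
scalar fields and all universes. -/

open Set Cardinal

namespace Vale.Agent.P129.H3

open Vale.Agent.P129.H189

universe u

/-- Some Banach space of density `ℵ₁` has no separable infinite-dimensional quotient if and only if
some set of `ℵ₁` real numbers is not meagre; real and complex scalars. -/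
def DensityAlephOne : Prop :=
  ∀ (𝕜 : Type) [RCLike 𝕜],
    (∃ (X : Type u) (_ : NormedAddCommGroup X) (_ : NormedSpace 𝕜 X) (_ : CompleteSpace X),
      dens X = ℵ_ 1 ∧ ¬ HasSeparableQuotient 𝕜 X) ↔ nonMeagre = ℵ_ 1

/-- what the construction gives -/
def RealCounterexample : Prop :=
  ∃ (X : Type) (_ : NormedAddCommGroup X) (_ : NormedSpace ℝ X) (_ : CompleteSpace X),
    dens X ≤ ℵ_ 1 ∧ ¬ FiniteDimensional ℝ X ∧ ¬ HasSeparableQuotient ℝ X ∧
      ¬ HasSeparableQuotient ℝ (X × X)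

theorem aleph_one_le_nonMeagre : ℵ_ 1 ≤ nonMeagre := by
  rw [← Cardinal.succ_aleph0]
  exact Order.succ_le_of_lt aleph0_lt_nonMeagre

theorem nonMeagre_le_continuum : nonMeagre ≤ continuum := by
  have h1 : nonMeagre ≤ #(univ : Set ℝ) :=
    csInf_le' ⟨_, not_isMeagre_of_isOpen isOpen_univ univ_nonempty, rfl⟩
  rwa [Cardinal.mk_univ, Cardinal.mk_real] at h1

/-- small density gives a separable quotient -/
theorem hasSep_of_dens_lt {𝕜 : Type} [RCLike 𝕜] {X : Type u} [NormedAddCommGroup X]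
    [NormedSpace 𝕜 X] [CompleteSpace X] (h : dens X < Cardinal.lift.{u} nonMeagre)
    (hinf : ¬ FiniteDimensional 𝕜 X) : HasSeparableQuotient 𝕜 X := by
  obtain ⟨S, hS, hSc⟩ := exists_dense_mk_eq X
  refine H520.generatedCase 𝕜 X ((fun x => {x}) '' S) ?_ ?_ ?_ hinf
  · rintro _ ⟨x, -, rfl⟩
    rw [image_singleton]
    exact isCompact_singleton
  · refine hS.mono fun x hx => Submodule.subset_span ?_
    exact ⟨{x}, ⟨x, hx, rfl⟩, rfl⟩
  · exact (Cardinal.mk_image_le.trans hSc.le).trans_lt h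

theorem not_finite_of_dens {𝕜 : Type} [RCLike 𝕜] {X : Type u} [NormedAddCommGroup X]
    [NormedSpace 𝕜 X] (h : dens X = ℵ_ 1) : ¬ FiniteDimensional 𝕜 X := by
  intro hfin
  have h1 : TopologicalSpace.SeparableSpace X := by
    have := FiniteDimensional.proper_rclike 𝕜 X
    infer_instance
  obtain ⟨S, hS, hSd⟩ := TopologicalSpace.exists_countable_dense X
  have h2 : dens X ≤ ℵ₀ := (dens_le_mk hSd).trans (Cardinal.mk_le_aleph0_iff.2 hS.to_subtype)
  rw [h] at h2
  exact absurd h2 (not_le.2 Cardinal.aleph0_lt_aleph_one)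

theorem dens_eq_of_counterexample {𝕜 : Type} [RCLike 𝕜] {X : Type u} [NormedAddCommGroup X]
    [NormedSpace 𝕜 X] [CompleteSpace X] (h : dens X ≤ ℵ_ 1) (hinf : ¬ FiniteDimensional 𝕜 X)
    (hX : ¬ HasSeparableQuotient 𝕜 X) : dens X = ℵ_ 1 := by
  refine h.antisymm ?_
  by_contra hlt
  rw [not_le, ← Cardinal.succ_aleph0, Order.lt_succ_iff] at hlt
  exact hX (hasSep_of_dens_lt (hlt.trans_lt aleph0_lt_lift_nonMeagre) hinf)

/-- transport of separable quotients to a lift to another universe -/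
theorem hasSep_ulift {𝕜 : Type} [RCLike 𝕜] {Z : Type} [NormedAddCommGroup Z] [NormedSpace 𝕜 Z]
    (h : HasSeparableQuotient 𝕜 (ULift.{u} Z)) : HasSeparableQuotient 𝕜 Z := by
  obtain ⟨M, hM, hs, hd⟩ := h
  let e : ULift.{u} Z ≃L[𝕜] Z := ContinuousLinearEquiv.ulift
  let M' : Submodule 𝕜 Z := M.map (e : ULift.{u} Z →ₗ[𝕜] Z)
  have hM' : IsClosed (M' : Set Z) := by
    have : (M' : Set Z) = e '' (M : Set (ULift.{u} Z)) := by
      ext y; simp [M']
    rw [this]
    exact e.toHomeomorph.isClosedMap _ hM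
  let Q : (ULift.{u} Z ⧸ M) ≃ₗ[𝕜] (Z ⧸ M') := Submodule.Quotient.equiv M M' e.toLinearEquiv rfl
  refine ⟨M', hM', ?_, fun hfin => hd ?_⟩
  · have hcont : Continuous Q := by
      have hq : Topology.IsQuotientMap (M.mkQ : ULift.{u} Z → ULift.{u} Z ⧸ M) := by
        exact isQuotientMap_quotient_mk'
      rw [hq.continuous_iff]
      have : (Q ∘ (M.mkQ : ULift.{u} Z → ULift.{u} Z ⧸ M)) = (M'.mkQ : Z → Z ⧸ M') ∘ e := by
        ext x
        simp [Q, Submodule.Quotient.equiv]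
      rw [this]
      exact (continuous_quotient_mk').comp e.continuous
    exact Q.surjective.denseRange.separableSpace hcont
  · exact Module.Finite.equiv Q.symm

/-- A real counterexample gives one over every `RCLike` field in every universe. -/
theorem exists_of_real (h : RealCounterexample) (𝕜 : Type) [RCLike 𝕜] :
    ∃ (X : Type u) (_ : NormedAddCommGroup X) (_ : NormedSpace 𝕜 X) (_ : CompleteSpace X),
      dens X = ℵ_ 1 ∧ ¬ HasSeparableQuotient 𝕜 X := by
  obtain ⟨X, _, _, _, hd, hinf, h1, h2⟩ := h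
  obtain ⟨S, hS, hSc⟩ := exists_dense_mk_eq X
  obtain ⟨T, hT, hTc⟩ := exists_dense_extension (𝕜 := 𝕜) hS
  have h3 : #T ≤ ℵ_ 1 := by
    refine hTc.trans (sup_le ?_ (hSc.le.trans hd))
    calc #S * #S ≤ ℵ_ 1 * ℵ_ 1 := by
          rw [hSc]
          gcongr
      _ = ℵ_ 1 := Cardinal.mul_eq_self (Cardinal.aleph0_le_aleph 1)
  have h4 := extension_no_quotient (𝕜 := 𝕜) h1 h2
  have h5 := extension_not_finite (𝕜 := 𝕜) hinf
  have h6 : ¬ HasSeparableQuotient 𝕜 (ULift.{u} (Cx 𝕜 X)) := fun h => h4 (hasSep_ulift h)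
  have h7 : ¬ FiniteDimensional 𝕜 (ULift.{u} (Cx 𝕜 X)) := fun h =>
    h5 (Module.Finite.equiv (ULift.moduleEquiv : ULift.{u} (Cx 𝕜 X) ≃ₗ[𝕜] Cx 𝕜 X))
  have h8 : dens (ULift.{u} (Cx 𝕜 X)) ≤ ℵ_ 1 := by
    have h9 : Dense (ULift.up '' T : Set (ULift.{u} (Cx 𝕜 X))) :=
      (ULift.up_surjective.denseRange).dense_image continuous_uliftUp hT
    refine (dens_le_mk h9).trans ?_
    have h10 : Cardinal.lift.{0} #(ULift.up '' T : Set (ULift.{u} (Cx 𝕜 X))) ≤
        Cardinal.lift.{u} #T := Cardinal.mk_image_le_lift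
    rw [Cardinal.lift_id'] at h10
    refine h10.trans ((Cardinal.lift_le.2 h3).trans (le_of_eq ?_))
    simp
  exact ⟨ULift.{u} (Cx 𝕜 X), inferInstance, inferInstance, inferInstance,
    dens_eq_of_counterexample h8 h7 h6, h6⟩

theorem densityAlephOne (h : nonMeagre = ℵ_ 1 → RealCounterexample) : DensityAlephOne.{u} := by
  intro 𝕜 _
  refine ⟨?_, fun h1 => exists_of_real (h h1) 𝕜⟩
  rintro ⟨X, _, _, _, hd, hX⟩
  refine le_antisymm ?_ aleph_one_le_nonMeagre
  by_contra hlt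
  rw [not_le] at hlt
  refine hX (hasSep_of_dens_lt ?_ (not_finite_of_dens hd))
  rw [hd]
  simpa using hlt

theorem not_fullAnswer (h : nonMeagre = ℵ_ 1 → RealCounterexample)
    (h1 : nonMeagre = ℵ_ 1) : ¬ FullAnswer.{u} := by
  intro hF
  obtain ⟨X, _, _, _, hd, hX⟩ := exists_of_real.{u} (h h1) ℝ
  exact hX (hF ℝ X (not_finite_of_dens hd))

theorem nonMeagre_eq_of_CH (h : continuum.{0} = ℵ_ 1) : nonMeagre = ℵ_ 1 :=
  le_antisymm (nonMeagre_le_continuum.trans h.le) aleph_one_le_nonMeagre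

theorem fullAnswer_of_extends (h : LebesgueExtends) : FullAnswer.{u} :=
  H520.fullAnswer_of_free (H520.infiniteFreeSets_of_extends h)

end Vale.Agent.P129.H3
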