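import Mathlib

/-! P129, part J: bookkeeping under CH, and transfinite choice along a well-order with countable
initial segments. -/

open Set Cardinal

namespace Vale.Agent.P129.H3

/-- Transfinite choice: a relation between the values at the smaller indices and the next value
which can always be satisfied is satisfied by some function. -/
theorem exists_transfinite_choice {ι B : Type*} [LinearOrder ι] [WellFoundedLT ι]
    (good : (μ : ι) → (Iio μ → B) → B → Prop) (h : ∀ μ prev, ∃ b, good μ prev b) :
    ∃ f : ι → B, ∀ μ, good μ (fun ν => f ν) (f μ) := by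
  classical
  have hwf : WellFounded (fun a b : ι => a < b) := wellFounded_lt
  choose g hg using h
  let f : ι → B := hwf.fix fun μ F => g μ fun ν => F ν.1 ν.2
  refine ⟨f, fun μ => ?_⟩
  have h1 : f μ = g μ fun ν => f ν.1 := hwf.fix_eq _ μ
  rw [h1]
  exact hg μ _

/-- A type of cardinality `ℵ₁` with countable initial segments is unbounded over itself in every
type of at most `ℵ₁` elements: there is an enumeration with cofinal fibres. -/
theorem exists_cofinal_enumeration {ι D : Type} [LinearOrder ι] (hι : #ι = ℵ_ 1)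
    (hc : ∀ b : ι, (Iio b).Countable) (hD : #D ≤ ℵ_ 1) [Nonempty D] :
    ∃ data : ι → D, ∀ d a, ∃ μ, a ≤ μ ∧ data μ = d := by
  have h1 : #(ι × D) ≤ #ι := by
    rw [Cardinal.mk_prod, Cardinal.lift_id, Cardinal.lift_id, hι]
    calc ℵ_ 1 * #D ≤ ℵ_ 1 * ℵ_ 1 := by gcongr
      _ = ℵ_ 1 := Cardinal.mul_eq_self (Cardinal.aleph0_le_aleph 1)
  have hne : Nonempty ι := by
    rw [← Cardinal.mk_ne_zero_iff, hι]
    exact (Cardinal.aleph_pos 1).ne'
  obtain ⟨e⟩ := h1
  let g : ι → ι × D := Function.invFun e
  have hg : Function.Surjective g := Function.invFun_surjective e.injective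
  refine ⟨fun μ => (g μ).2, fun d a => ?_⟩
  by_contra hcon
  push Not at hcon
  have h2 : (fun i => Function.surjInv hg (i, d)) '' univ ⊆ Iio a := by
    rintro _ ⟨i, -, rfl⟩
    by_contra h3
    refine hcon _ (not_lt.1 h3) ?_
    exact congrArg Prod.snd (Function.surjInv_eq hg (i, d))
  have h4 : Function.Injective fun i : ι => Function.surjInv hg (i, d) := by
    intro i j hij
    have := Function.injective_surjInv hg hij
    simpa using this
  have h5 : (univ : Set ι).Countable :=
    (countable_of_injective_of_countable_image h4.injOn ((hc a).mono h2))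
  rw [Set.countable_univ_iff, ← Cardinal.mk_le_aleph0_iff, hι] at h5
  exact absurd h5 (not_le.2 Cardinal.aleph0_lt_aleph_one)

/-- Under CH there are at most `ℵ₁` sequences of finitely supported rational vectors. -/
theorem mk_data_le {ι : Type} (hCH : continuum.{0} = ℵ_ 1) (hι : #ι = ℵ_ 1) :
    #(ι × (ℕ → (ι →₀ ℚ))) ≤ ℵ_ 1 := by
  have h0 : ℵ₀ ≤ #ι := hι ▸ Cardinal.aleph0_le_aleph 1
  have hinf : Infinite ι := Cardinal.infinite_iff.2 h0
  have h1 : #(ι →₀ ℚ) = ℵ_ 1 := by
    rw [Cardinal.mk_finsupp_of_infinite, hι]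
    refine max_eq_left ?_
    rw [Cardinal.mk_eq_aleph0 ℚ]
    exact Cardinal.aleph0_le_aleph 1
  have h2 : #(ℕ → (ι →₀ ℚ)) = ℵ_ 1 := by
    rw [← Cardinal.power_def, h1, ← hCH, Cardinal.mk_nat]
    exact Cardinal.continuum_power_aleph0
  rw [Cardinal.mk_prod, Cardinal.lift_id, Cardinal.lift_id, h2, hι]
  exact (Cardinal.mul_eq_self (Cardinal.aleph0_le_aleph 1)).le

/-- Under CH there are at most `ℵ₁` sequences of finitely supported real vectors. -/
theorem mk_data_real_le {ι : Type} (hCH : continuum.{0} = ℵ_ 1) (hι : #ι = ℵ_ 1) :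
    #(ι × (ℕ → (ι →₀ ℝ))) ≤ ℵ_ 1 := by
  have h0 : ℵ₀ ≤ #ι := hι ▸ Cardinal.aleph0_le_aleph 1
  have hinf : Infinite ι := Cardinal.infinite_iff.2 h0
  have h1 : #(ι →₀ ℝ) = ℵ_ 1 := by
    rw [Cardinal.mk_finsupp_of_infinite, hι, Cardinal.mk_real, hCH, max_self]
  have h2 : #(ℕ → (ι →₀ ℝ)) = ℵ_ 1 := by
    rw [← Cardinal.power_def, h1, ← hCH, Cardinal.mk_nat]
    exact Cardinal.continuum_power_aleph0
  rw [Cardinal.mk_prod, Cardinal.lift_id, Cardinal.lift_id, h2, hι]
  exact (Cardinal.mul_eq_self (Cardinal.aleph0_le_aleph 1)).le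

/-- **Bookkeeping.** Let `D` be a set of at most `ℵ₁` data, each with a bound `lam d` in `ι`, and
suppose that for every admissible datum `d` and every countable set `S` of branches there is a
branch which is good for `d` and almost disjoint from all members of `S`. Then branches can be
assigned to (some of the) members of `ι` such that the assigned branches are pairwise almost
disjoint and every admissible datum is served at cofinally many stages. -/
theorem exists_bookkeeping {ι D B : Type} [LinearOrder ι] [WellFoundedLT ι] (hι : #ι = ℵ_ 1)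
    (hc : ∀ b : ι, (Iio b).Countable) (hD : #D ≤ ℵ_ 1) [Nonempty D] (lam : D → ι)
    (ok : D → Prop) (good : D → B → Prop) (AD : B → B → Prop) (hsymm : ∀ b b', AD b b' → AD b' b)
    (supply : ∀ d, ok d → ∀ S : Set B, S.Countable → ∃ b, good d b ∧ ∀ b' ∈ S, AD b b') :
    ∃ (data : ι → D) (br : ι → Option B),
      (∀ μ b, br μ = some b → ok (data μ) ∧ lam (data μ) ≤ μ ∧ good (data μ) b) ∧
      (∀ μ ν b b', μ ≠ ν → br μ = some b → br ν = some b' → AD b b') ∧
      (∀ d, ok d → ∀ a, ∃ μ, a ≤ μ ∧ lam d ≤ μ ∧ data μ = d ∧ ∃ b, br μ = some b) := by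
  classical
  obtain ⟨data, hdata⟩ := exists_cofinal_enumeration hι hc hD
  obtain ⟨br, hbr⟩ := exists_transfinite_choice (B := Option B)
    (fun μ prev ob => if ok (data μ) ∧ lam (data μ) ≤ μ then
      ∃ b, ob = some b ∧ good (data μ) b ∧ ∀ ν b', prev ν = some b' → AD b b' else ob = none) (by
      intro μ prev
      by_cases hμ : ok (data μ) ∧ lam (data μ) ≤ μ
      · simp only [hμ, and_self, if_true]
        have hS : {b' : B | ∃ ν : Iio μ, prev ν = some b'}.Countable := by
          have : Countable (Iio μ) := (hc μ).to_subtype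
          refine (Set.countable_iUnion fun ν : Iio μ =>
            Set.Subsingleton.countable (s := {b' : B | prev ν = some b'}) ?_).mono ?_
          · intro b hb b' hb'
            have hb1 : prev ν = some b := hb
            have hb2 : prev ν = some b' := hb'
            rw [hb1] at hb2
            exact Option.some.inj hb2
          · rintro b' ⟨ν, hν⟩
            exact mem_iUnion.2 ⟨ν, hν⟩
        obtain ⟨b, hb, hAD⟩ := supply _ hμ.1 _ hS
        exact ⟨some b, b, rfl, hb, fun ν b' h => hAD b' ⟨ν, h⟩⟩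
      · simp only [hμ, if_false]
        exact ⟨none, rfl⟩)
  have key : ∀ μ ν b b', ν < μ → br μ = some b → br ν = some b' → AD b b' := by
    intro μ ν b b' hlt h1 h2
    have h3 := hbr μ
    by_cases hμ : ok (data μ) ∧ lam (data μ) ≤ μ
    · simp only [hμ, and_self, if_true] at h3
      obtain ⟨b'', h4, -, h5⟩ := h3
      rw [h1] at h4
      obtain rfl := Option.some.inj h4
      exact h5 ⟨ν, hlt⟩ b' h2
    · simp only [hμ, if_false] at h3
      rw [h1] at h3
      cases h3
  refine ⟨data, br, ?_, ?_, ?_⟩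
  · intro μ b h1
    have h3 := hbr μ
    by_cases hμ : ok (data μ) ∧ lam (data μ) ≤ μ
    · simp only [hμ, and_self, if_true] at h3
      obtain ⟨b'', h4, h6, -⟩ := h3
      rw [h1] at h4
      obtain rfl := Option.some.inj h4
      exact ⟨hμ.1, hμ.2, h6⟩
    · simp only [hμ, if_false] at h3
      rw [h1] at h3
      cases h3
  · intro μ ν b b' hne h1 h2
    rcases lt_or_gt_of_ne hne with h | h
    · exact hsymm _ _ (key ν μ b' b h h2 h1)
    · exact key μ ν b b' h h1 h2
  · intro d hd a
    obtain ⟨μ, h1, h2⟩ := hdata d (max a (lam d))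
    have h3 := hbr μ
    have hμ : ok (data μ) ∧ lam (data μ) ≤ μ := by
      rw [h2]
      exact ⟨hd, (le_max_right _ _).trans h1⟩
    simp only [hμ, and_self, if_true] at h3
    obtain ⟨b, h4, -, -⟩ := h3
    exact ⟨μ, (le_max_left _ _).trans h1, (le_max_right _ _).trans h1, h2, b, h4⟩

end Vale.Agent.P129.H3
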