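import Vale.Agent.P129.H189.Defs
import Mathlib

/-! P129: scalar extension of a real Banach space to an `RCLike` field (so the complexification for
`ℂ`, and the space itself for `ℝ`), and separable quotients. -/

open Set

namespace Vale.Agent.P129.H3

open Vale.Agent.P129.H189

universe u

/-- Transport of separable quotients along a linear homeomorphism. -/
theorem hasSep_congr {X Y : Type*} [NormedAddCommGroup X] [NormedSpace ℝ X]
    [NormedAddCommGroup Y] [NormedSpace ℝ Y] (e : X ≃L[ℝ] Y) (h : HasSeparableQuotient ℝ X) :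
    HasSeparableQuotient ℝ Y := by
  obtain ⟨M, hM, hs, hd⟩ := h
  let M' : Submodule ℝ Y := M.map (e : X →ₗ[ℝ] Y)
  have hM' : IsClosed (M' : Set Y) := by
    have : (M' : Set Y) = e '' (M : Set X) := by
      ext y; simp [M']
    rw [this]
    exact e.toHomeomorph.isClosedMap _ hM
  let Q : (X ⧸ M) ≃ₗ[ℝ] (Y ⧸ M') := Submodule.Quotient.equiv M M' e.toLinearEquiv rfl
  refine ⟨M', hM', ?_, fun hfin => hd ?_⟩
  · have hcont : Continuous Q := by
      have hq : Topology.IsQuotientMap (M.mkQ : X → X ⧸ M) := by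
        exact isQuotientMap_quotient_mk'
      rw [hq.continuous_iff]
      have : (Q ∘ (M.mkQ : X → X ⧸ M)) = (M'.mkQ : Y → Y ⧸ M') ∘ e := by
        ext x
        simp [Q, Submodule.Quotient.equiv]
      rw [this]
      exact (continuous_quotient_mk').comp e.continuous
    exact Q.surjective.denseRange.separableSpace hcont
  · exact Module.Finite.equiv Q.symm

variable (𝕜 : Type) [RCLike 𝕜]

/-- The scalar extension of a real normed space to `𝕜`, realised as the space of real-linear
bounded maps from `𝕜` to the space. -/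
def Cx (X : Type u) [NormedAddCommGroup X] [NormedSpace ℝ X] : Type u := 𝕜 →L[ℝ] X

variable {X : Type u} [NormedAddCommGroup X] [NormedSpace ℝ X]

noncomputable instance : NormedAddCommGroup (Cx 𝕜 X) :=
  inferInstanceAs (NormedAddCommGroup (𝕜 →L[ℝ] X))

instance [CompleteSpace X] : CompleteSpace (Cx 𝕜 X) := inferInstanceAs (CompleteSpace (𝕜 →L[ℝ] X))

namespace Cx

variable {𝕜}

/-- the real-linear map `f` underlying an element of the extension -/
def toMap (f : Cx 𝕜 X) : 𝕜 →L[ℝ] X := f

/-- the element of the extension given by a real-linear map -/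
def ofMap (f : 𝕜 →L[ℝ] X) : Cx 𝕜 X := f

noncomputable instance : SMul 𝕜 (Cx 𝕜 X) :=
  ⟨fun c f => ofMap ((toMap f).comp (ContinuousLinearMap.mul ℝ 𝕜 c))⟩

theorem smul_apply (c : 𝕜) (f : Cx 𝕜 X) (z : 𝕜) : toMap (c • f) z = toMap f (c * z) := rfl

theorem ext' {f g : Cx 𝕜 X} (h : ∀ z, toMap f z = toMap g z) : f = g := ContinuousLinearMap.ext h

theorem add_apply (f g : Cx 𝕜 X) (z : 𝕜) : toMap (f + g) z = toMap f z + toMap g z := rfl

theorem zero_apply (z : 𝕜) : toMap (0 : Cx 𝕜 X) z = 0 := rfl

noncomputable instance : Module 𝕜 (Cx 𝕜 X) where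
  one_smul f := ext' fun z => by rw [smul_apply, one_mul]
  mul_smul a b f := ext' fun z => by rw [smul_apply, smul_apply, smul_apply]; congr 1; ring
  smul_zero a := ext' fun z => by rw [smul_apply, zero_apply, zero_apply]
  smul_add a f g := ext' fun z => by rw [smul_apply, add_apply, add_apply, smul_apply, smul_apply]
  add_smul a b f := ext' fun z => by
    rw [smul_apply, add_apply, smul_apply, smul_apply, add_mul, map_add]
  zero_smul f := ext' fun z => by rw [smul_apply, zero_apply, zero_mul, map_zero]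

theorem norm_def (f : Cx 𝕜 X) : ‖f‖ = ‖toMap f‖ := rfl

noncomputable instance : NormedSpace 𝕜 (Cx 𝕜 X) where
  norm_smul_le c f := by
    rw [norm_def, norm_def]
    refine ContinuousLinearMap.opNorm_le_bound _ (by positivity) fun z => ?_
    rw [smul_apply]
    refine ((toMap f).le_opNorm _).trans (le_of_eq ?_)
    rw [norm_mul]
    ring

theorem algebraMap_smul_apply (r : ℝ) (f : Cx 𝕜 X) (z : 𝕜) :
    toMap (algebraMap ℝ 𝕜 r • f) z = r • toMap f z := by
  rw [smul_apply, ← (toMap f).map_smul, Algebra.smul_def]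

theorem continuous_toMap_apply (z : 𝕜) : Continuous fun f : Cx 𝕜 X => toMap f z :=
  (ContinuousLinearMap.apply ℝ X z).continuous

/-- In the complex case the extension is real-isomorphic to the square of the space. -/
noncomputable def equivProd (hI : RCLike.im (RCLike.I : 𝕜) = 1) :
    letI := NormedSpace.restrictScalars ℝ 𝕜 (Cx 𝕜 X); Cx 𝕜 X ≃L[ℝ] X × X :=
  letI := NormedSpace.restrictScalars ℝ 𝕜 (Cx 𝕜 X)
  { toFun := fun f => (toMap f 1, toMap f RCLike.I)
    map_add' := fun f g => rfl
    map_smul' := fun r f => by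
      have h1 : ∀ z, toMap (r • f) z = r • toMap f z := by
        intro z
        exact algebraMap_smul_apply r f z
      simp only [h1]
      rfl
    invFun := fun p => ofMap ((RCLike.reCLM.smulRight p.1) + (RCLike.imCLM.smulRight p.2))
    left_inv := fun f => by
      refine ext' fun z => ?_
      change RCLike.re z • toMap f 1 + RCLike.im z • toMap f RCLike.I = toMap f z
      rw [← map_smul, ← map_smul, ← map_add]
      congr 1
      rw [RCLike.real_smul_eq_coe_mul, RCLike.real_smul_eq_coe_mul, mul_one]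
      exact RCLike.re_add_im z
    right_inv := fun p => by
      change (RCLike.re (1 : 𝕜) • p.1 + RCLike.im (1 : 𝕜) • p.2,
        RCLike.re (RCLike.I : 𝕜) • p.1 + RCLike.im (RCLike.I : 𝕜) • p.2) = p
      simp [hI]
    continuous_toFun := (continuous_toMap_apply 1).prodMk (continuous_toMap_apply RCLike.I)
    continuous_invFun := by
      have h1 : Continuous fun p : X => (RCLike.reCLM.smulRight p : 𝕜 →L[ℝ] X) :=
        (ContinuousLinearMap.smulRightL ℝ 𝕜 X RCLike.reCLM).continuous
      have h2 : Continuous fun p : X => (RCLike.imCLM.smulRight p : 𝕜 →L[ℝ] X) :=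
        (ContinuousLinearMap.smulRightL ℝ 𝕜 X RCLike.imCLM).continuous
      exact (h1.comp continuous_fst).add (h2.comp continuous_snd) }

/-- In the real case the extension is real-isomorphic to the space. -/
noncomputable def equivSelf (hI : (RCLike.I : 𝕜) = 0) :
    letI := NormedSpace.restrictScalars ℝ 𝕜 (Cx 𝕜 X); Cx 𝕜 X ≃L[ℝ] X :=
  letI := NormedSpace.restrictScalars ℝ 𝕜 (Cx 𝕜 X)
  { toFun := fun f => toMap f 1
    map_add' := fun f g => rfl
    map_smul' := fun r f => by
      have h1 : ∀ z, toMap (r • f) z = r • toMap f z := by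
        intro z
        exact algebraMap_smul_apply r f z
      simp only [h1]
      rfl
    invFun := fun p => ofMap (RCLike.reCLM.smulRight p)
    left_inv := fun f => by
      refine ext' fun z => ?_
      change RCLike.re z • toMap f 1 = toMap f z
      rw [← map_smul]
      congr 1
      rw [RCLike.real_smul_eq_coe_mul, mul_one]
      conv_rhs => rw [← RCLike.re_add_im z, hI, mul_zero, add_zero]
    right_inv := fun p => by
      change RCLike.re (1 : 𝕜) • p = p
      simp
    continuous_toFun := continuous_toMap_apply 1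
    continuous_invFun := (ContinuousLinearMap.smulRightL ℝ 𝕜 X RCLike.reCLM).continuous }

end Cx

variable {𝕜}

/-- A Banach space over `𝕜` with a separable infinite-dimensional quotient has one as a real
space. -/
theorem hasSep_restrict {Z : Type u} [NormedAddCommGroup Z] [NormedSpace 𝕜 Z]
    (h : HasSeparableQuotient 𝕜 Z) :
    letI := NormedSpace.restrictScalars ℝ 𝕜 Z
    HasSeparableQuotient ℝ Z := by
  let _ := NormedSpace.restrictScalars ℝ 𝕜 Z
  obtain ⟨M, hM, hs, hd⟩ := h
  refine ⟨M.restrictScalars ℝ, hM, hs, fun hfin => hd ?_⟩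
  have h1 : Module.Finite ℝ (Z ⧸ M) := hfin
  exact Module.Finite.of_restrictScalars_finite ℝ 𝕜 (Z ⧸ M)

/-- If neither a real Banach space nor its square has a separable infinite-dimensional quotient,
then its scalar extension has none. -/
theorem extension_no_quotient (h1 : ¬ HasSeparableQuotient ℝ X)
    (h2 : ¬ HasSeparableQuotient ℝ (X × X)) : ¬ HasSeparableQuotient 𝕜 (Cx 𝕜 X) := by
  intro h
  let _ := NormedSpace.restrictScalars ℝ 𝕜 (Cx 𝕜 X)
  rcases RCLike.I_eq_zero_or_im_I_eq_one (K := 𝕜) with hI | hI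
  · exact h1 (hasSep_congr (Cx.equivSelf hI) (hasSep_restrict h))
  · exact h2 (hasSep_congr (Cx.equivProd hI) (hasSep_restrict h))

theorem extension_not_finite (h : ¬ FiniteDimensional ℝ X) : ¬ FiniteDimensional 𝕜 (Cx 𝕜 X) := by
  intro h1
  let _ := NormedSpace.restrictScalars ℝ 𝕜 (Cx 𝕜 X)
  have h2 : Module.Finite ℝ (Cx 𝕜 X) := Module.Finite.trans 𝕜 (Cx 𝕜 X)
  rcases RCLike.I_eq_zero_or_im_I_eq_one (K := 𝕜) with hI | hI
  · exact h (Module.Finite.equiv (Cx.equivSelf hI).toLinearEquiv)
  · have h3 : Module.Finite ℝ (X × X) := Module.Finite.equiv (Cx.equivProd hI).toLinearEquiv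
    exact h (Module.Finite.of_surjective (LinearMap.fst ℝ X X) LinearMap.fst_surjective)

/-- Density of the scalar extension. -/
theorem exists_dense_extension {S : Set X} (hS : Dense S) :
    ∃ T : Set (Cx 𝕜 X), Dense T ∧ Cardinal.mk T ≤ Cardinal.mk S * Cardinal.mk S ⊔ Cardinal.mk S := by
  let _ := NormedSpace.restrictScalars ℝ 𝕜 (Cx 𝕜 X)
  rcases RCLike.I_eq_zero_or_im_I_eq_one (K := 𝕜) with hI | hI
  · refine ⟨(Cx.equivSelf hI).symm '' S, ?_, ?_⟩
    · exact (Cx.equivSelf (𝕜 := 𝕜) (X := X) hI).symm.surjective.denseRange.dense_image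
        (Cx.equivSelf hI).symm.continuous hS
    · exact Cardinal.mk_image_le.trans le_sup_right
  · refine ⟨(Cx.equivProd hI).symm '' (S ×ˢ S), ?_, ?_⟩
    · exact (Cx.equivProd (𝕜 := 𝕜) (X := X) hI).symm.surjective.denseRange.dense_image
        (Cx.equivProd hI).symm.continuous (hS.prod hS)
    · refine Cardinal.mk_image_le.trans (le_trans (le_of_eq ?_) le_sup_left)
      rw [Cardinal.mk_congr (Equiv.Set.prod S S), Cardinal.mul_def]

end Vale.Agent.P129.H3
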